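import Vale.Agent.P088.R2.H551.V.Defs
import Vale.Agent.P088.R2.H404.DI

/-!
# P088, stage 4 (local theorem for pairs), definitions of part A

Part A is independent of the weight on pairs of points. `O` is the chart, `K` the closed set
of the points which are not matched yet, `g` the weight (`ρ → ∞`).  Everything is smooth on `V n`
(after cutting off), the equations hold on `O`.
-/

open MeasureTheory Set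
open scoped ContDiff Matrix

noncomputable section

namespace Vale.Agent.P088.S4

open Vale.Agent.P088.LR Vale.Agent.P088.LR.U Vale.Agent.P088.LR.H158
open Vale.Agent.P088.HY (VV)
open Vale.Agent.P088.PJ
open Vale.Agent.P088.R2.H404 (CW TO)

variable {n N : ℕ}

/-! ## Reduced data -/

/-- The reduced data of one pair, with the equations on `O` (see `PJ.Dt`). -/
structure Da (k : ℕ) (δ : ℝ) (O : Set (V n)) (s : MF n) (P : MC n N) (G : Fin n → MC n N) :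
    Prop where
  ss : SmM s
  sy : ∀ x, (s x).IsSymm
  sP : SmC P
  hP : ∀ x, (P x)ᴴ = P x
  sG : ∀ i, SmC (G i)
  hG : ∀ i x, (G i x)ᴴ = -G i x
  cs : ∀ i j, Cl k δ (fun x => s x i j - (1 : Matrix (Fin n) (Fin n) ℝ) i j)
  cP : ClC k δ (fun x => P x - 1)
  cG : ∀ i, ClC k δ (G i)
  dq : ∀ x ∈ O, ∑ i, pdm i (kp s G i) x = 0
  pe : ∀ x ∈ O, ∑ i, pdm i (fun y => ∑ j, (s y i j : ℂ) • pdm j P y) x =
    (1 / 2 : ℂ) • ∑ i, ∑ j, (s x i j : ℂ) •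
      ((pdm i P x - G i x) * (P x)⁻¹ * (pdm j P x + G j x))

/-- The reduced data of two pairs on the chart `O`, equal off `K`. The equations hold on `O ∩ K`
(at a boundary point `O \ K` is outside of the manifold). `β` are the first order coefficients of
the operator in `x`, `β = bL s₁ P₁ G₁` on `O ∩ K`, with `L Y_a = 0` on all of `O`. The component
`(j₀, j₀)` of `D_a` has real part `0`. -/
structure RL (k : ℕ) (δ : ℝ) (O K : Set (V n)) (j₀ : Fin N) (s₁ s₂ : MF n) (P₁ P₂ : MC n N)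
    (G₁ G₂ : Fin n → MC n N) (β Y D : Fin n → MC n N) : Prop where
  op : IsOpen O
  cl : IsClosed K
  d₁ : Da k δ (O ∩ K) s₁ P₁ G₁
  d₂ : Da k δ (O ∩ K) s₂ P₂ G₂
  sβ : ∀ i, SmC (β i)
  cβ : ∀ i, ClC k δ (β i)
  eβ : ∀ i, ∀ x ∈ O ∩ K, β i x = bL s₁ P₁ G₁ i x
  LY : ∀ a, ∀ x ∈ O, ∑ i, ∑ j, (s₁ x i j : ℂ) • pdm i (pdm j (Y a)) x
    + ∑ i, β i x * pdm i (Y a) x = 0
  os : ∀ x ∈ O, x ∉ K → s₂ x = s₁ x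
  oP : ∀ x ∈ O, x ∉ K → P₂ x = P₁ x
  oG : ∀ i, ∀ x ∈ O, x ∉ K → G₂ i x = G₁ i x
  oD : ∀ a, ∀ x ∈ O, x ∉ K → D a x = 0
  sY : ∀ a, SmC (Y a)
  sD : ∀ a, SmC (D a)
  cY : ∀ a, ClC k δ (fun x => Y a x - (x a : ℂ) • 1)
  cD : ∀ a, ClC k δ (D a)
  tD : ∀ a, ∀ x ∈ O, (D a x j₀ j₀).re = 0
  hY : ∀ a, ∀ x ∈ O ∩ K, MoC (TP s₁ P₁) (kp s₁ G₁) (Y a) x = 0
  gi : ∀ a, ∀ x ∈ O ∩ K, MoC (TP s₂ P₂) (kp s₂ G₂) (fun x => Y a x + D a x) x = 0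

/-- The inverse of the block matrix `(∂_l Y_a)`. -/
structure IG (k : ℕ) (δ : ℝ) (Y : Fin n → MC n N) (Γ : Fin n → Fin n → MC n N) : Prop where
  sm : ∀ a b, SmC (Γ a b)
  li : ∀ l b x, ∑ a, pdm l (Y a) x * Γ a b x = if l = b then 1 else 0
  ri : ∀ a c x, ∑ b, Γ a b x * pdm b (Y c) x = if a = c then 1 else 0
  cl : ∀ a b, ClC k δ (fun x => Γ a b x - if a = b then 1 else 0)

/-! ## The main tensor -/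

/-- `𝒟_b = P₂ ∑ D_a Γ_ab`. -/
def Db (P : MC n N) (Γ : Fin n → Fin n → MC n N) (D : Fin n → MC n N) (b : Fin n) : MC n N :=
  fun x => P x * ∑ a, D a x * Γ a b x

/-- `l_b = ∑ (∂_b s_ij) k_ij + ∑ β_j k_jb`. -/
def lb (s : MF n) (β : Fin n → MC n N) (k2 : Fin n → Fin n → MC n N) (b : Fin n) :
    MC n N := fun x =>
  ∑ i, ∑ j, ((pd b (fun y => s y i j) x : ℝ) : ℂ) • k2 i j x + ∑ j, β j x * k2 j b x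

/-- `m_bl = (⟨s₂, σ⟩ δ_bl + 2 (s₂ σ)_lb) / (n + 2)`, `σ = s₁⁻¹`. -/
def mbl (s₂ σ : MF n) (b l : Fin n) (x : V n) : ℝ :=
  ((∑ i, ∑ j, s₂ x i j * σ x i j) * (if b = l then 1 else 0) + 2 * ∑ i, s₂ x l i * σ x i b) /
    (n + 2)

/-- The contribution of the cubic term to `ρ_b`. -/
def ta (s₁ s₂ σ : MF n) (P₂ : MC n N) (β : Fin n → MC n N) (k2 : Fin n → Fin n → MC n N)
    (b : Fin n) : MC n N := fun x =>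
  (∑ l, (mbl s₂ σ b l x : ℂ) • lb s₁ β k2 l x) * P₂ x

/-- `ρ_b` with the cubic term. -/
def rh (s₁ s₂ σ : MF n) (P₂ : MC n N) (G₂ β : Fin n → MC n N) (k2 : Fin n → Fin n → MC n N)
    (b : Fin n) : MC n N := fun x =>
  rhb s₂ P₂ G₂ k2 b x + ta s₁ s₂ σ P₂ β k2 b x

/-- The main tensor, not symmetrised:
`Z_jb + 2 ∑ ∂_i (s₂_ij 𝒟_b) - bR_j 𝒟_b - ∑ (∂_l s₁_jb) 𝒠_l - 𝒠_b β_j`, `𝒠_l = ∑ m_bl 𝒟_b`. -/
def VR (s₁ s₂ σ : MF n) (P₁ P₂ : MC n N) (G₂ β : Fin n → MC n N) (Γ : Fin n → Fin n → MC n N)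
    (D : Fin n → MC n N) (j b : Fin n) : MC n N := fun x =>
  Zt s₁ s₂ P₁ P₂ j b x + (2 : ℂ) • ∑ i, pdm i (fun y => (s₂ y i j : ℂ) • Db P₂ Γ D b y) x
    - bR s₂ P₂ G₂ j x * Db P₂ Γ D b x
    - ∑ l, ((pd l (fun y => s₁ y j b) x : ℝ) : ℂ) • ∑ c, (mbl s₂ σ c l x : ℂ) • Db P₂ Γ D c x
    - (∑ c, (mbl s₂ σ c b x : ℂ) • Db P₂ Γ D c x) * β j x

/-- The main tensor. -/
def VS (s₁ s₂ σ : MF n) (P₁ P₂ : MC n N) (G₂ β : Fin n → MC n N) (Γ : Fin n → Fin n → MC n N)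
    (D : Fin n → MC n N) (j b : Fin n) : MC n N := fun x =>
  (1 / 2 : ℂ) • (VR s₁ s₂ σ P₁ P₂ G₂ β Γ D j b x + VR s₁ s₂ σ P₁ P₂ G₂ β Γ D b j x)

/-! ## The approximate solution -/

/-- The cubic term `- |q|²_σ (∑ q_b l_b) / (2 (n + 2))`. -/
def c3 (s₁ σ : MF n) (β : Fin n → MC n N) (k2 : Fin n → Fin n → MC n N) : KC n N :=
  fun z => (((-(∑ c, ∑ d, σ z.2 c d * (z.1 c - z.2 c) * (z.1 d - z.2 d)) / (2 * (n + 2)) : ℝ)) : ℂ) •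
    ∑ b, ((z.1 b - z.2 b : ℝ) : ℂ) • lb s₁ β k2 b z.2

/-- `K = 1/2 ∑ k_ij(y) q_i q_j + c3 + ∑ Y_a(x) W_a(y) + W_0(y)`. -/
def Kq (s₁ σ : MF n) (β Y : Fin n → MC n N) (k2 : Fin n → Fin n → MC n N)
    (W : Fin n → MC n N) (W₀ : MC n N) : KC n N := fun z =>
  (1 / 2 : ℂ) • (∑ a, ∑ b, (((z.1 a - z.2 a) * (z.1 b - z.2 b) : ℝ) : ℂ) • k2 a b z.2)
    + c3 s₁ σ β k2 z + ∑ a, Y a z.1 * W a z.2 + W₀ z.2

/-- The residual `L K`. -/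
def Fx (s₁ σ : MF n) (β : Fin n → MC n N) (k2 : Fin n → Fin n → MC n N) : KC n N :=
  fun z => ∑ i, ∑ j, ((s₁ z.1 i j - s₁ z.2 i j -
      ∑ b, (z.1 b - z.2 b) * pd b (fun y => s₁ y i j) z.2 : ℝ) : ℂ) • k2 i j z.2
    + ∑ j, ∑ b, ((z.1 b - z.2 b : ℝ) : ℂ) • ((β j z.1 - β j z.2) * k2 j b z.2)
    + ∑ i, ∑ j, ((s₁ z.1 i j - s₁ z.2 i j : ℝ) : ℂ) • dxk i (dxk j (c3 s₁ σ β k2)) z
    + ∑ j, β j z.1 * dxk j (c3 s₁ σ β k2) z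

/-- The residual `R K`. -/
def Fy (s₁ s₂ σ : MF n) (P₂ : MC n N) (G₂ β Y : Fin n → MC n N)
    (Γ : Fin n → Fin n → MC n N) (k2 : Fin n → Fin n → MC n N) : KC n N := fun z =>
  (1 / 2 : ℂ) • (∑ a, ∑ b, (((z.1 a - z.2 a) * (z.1 b - z.2 b) : ℝ) : ℂ) •
      Rv s₂ (bR s₂ P₂ G₂) (k2 a b) z.2)
    + (Rk s₂ (bR s₂ P₂ G₂) (c3 s₁ σ β k2) z +
        (∑ b, ((z.1 b - z.2 b : ℝ) : ℂ) • ta s₁ s₂ σ P₂ β k2 b z.2) * (P₂ z.2)⁻¹)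
    + ∑ a, ∑ b, (Y a z.1 - Y a z.2 - ∑ l, ((z.1 l - z.2 l : ℝ) : ℂ) • pdm l (Y a) z.2) *
        (Γ a b z.2 * rh s₁ s₂ σ P₂ G₂ β k2 b z.2 * (P₂ z.2)⁻¹)

/-- The boundary form `B_j`. -/
def Bj (s₁ s₂ : MF n) (P₁ P₂ : MC n N) (G₂ Y D : Fin n → MC n N) (Γ : Fin n → Fin n → MC n N)
    (k2 : Fin n → Fin n → MC n N) (W : Fin n → MC n N) (j : Fin n) (x : V n) : ℂ :=
  ∑ i, ∑ a, (Zt s₁ s₂ P₁ P₂ j i x * pdm i (Y a) x * W a x).trace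
    + ∑ l, ∑ a, (TP s₂ P₂ j l x * pdm l (D a) x * W a x).trace
    - ∑ l, ∑ a, (TP s₂ P₂ l j x * D a x * pdm l (W a) x).trace
    + ∑ a, (kp s₂ G₂ j x * D a x * W a x).trace
    + 2 * ∑ a, ∑ b, ∑ l, (D a x * Γ a b x * k2 l b x * TP s₂ P₂ j l x).trace

/-! ## Weighted integrals -/

/-- `∫ χ² e^{2 ρ g} f`. -/
def wI (χ g : V n → ℝ) (ρ : ℝ) (f : V n → ℝ) : ℝ := ∫ x, χ x ^ 2 * Real.exp (2 * ρ * g x) * f x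

/-- `∫_B e^{2 ρ g} f`. -/
def wB (B : Set (V n)) (g : V n → ℝ) (ρ : ℝ) (f : V n → ℝ) : ℝ :=
  ∫ x in B, Real.exp (2 * ρ * g x) * f x

/-- `|s₂ - s₁|²`. -/
def hh (s₁ s₂ : MF n) (x : V n) : ℝ := ∑ i, ∑ j, (s₂ x i j - s₁ x i j) ^ 2

/-- `⟨s₁, s₂ - s₁⟩ / |s₁|²`. -/
def ph (s₁ s₂ : MF n) (x : V n) : ℝ :=
  (∑ i, ∑ j, s₁ x i j * (s₂ x i j - s₁ x i j)) / ∑ i, ∑ j, s₁ x i j ^ 2

/-- `|s₂ - s₁ - ph s₁|²`. -/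
def h0 (s₁ s₂ : MF n) (x : V n) : ℝ :=
  ∑ i, ∑ j, (s₂ x i j - s₁ x i j - ph s₁ s₂ x * s₁ x i j) ^ 2

/-- `ph ℓ(P₂) + ℓ(P₂ - P₁)`, `ℓ` the real part of the component `(j₀, j₀)`. -/
def ps (j₀ : Fin N) (s₁ s₂ : MF n) (P₁ P₂ : MC n N) (x : V n) : ℝ :=
  ph s₁ s₂ x * (P₂ x j₀ j₀).re + ((P₂ x - P₁ x) j₀ j₀).re

/-- `|D|²`. -/
def d0 (D : Fin n → MC n N) (x : V n) : ℝ := ∑ a, nq (D a x)

/-- `|∇ D|²`. -/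
def d1 (D : Fin n → MC n N) (x : V n) : ℝ := ∑ a, ∑ i, nq (pdm i (D a) x)

/-- `∑ |H_ij|²`. -/
def tn (H : Fin n → Fin n → MC n N) (x : V n) : ℝ := ∑ i, ∑ j, nq (H i j x)

/-- The size of all differences. -/
def U0 (s₁ s₂ : MF n) (P₁ P₂ : MC n N) (D : Fin n → MC n N) (x : V n) : ℝ :=
  hh s₁ s₂ x + nq (P₂ x - P₁ x) + d0 D x + d1 D x

/-- The cut-offs: `χ = 1` off `B` and its support, `χ₁ = 1` near `supp χ`, `χ₂ = 1` near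
`supp χ₁`. -/
structure CC (O B : Set (V n)) (ρ : ℝ) (χ χ₁ χ₂ : V n → ℝ) : Prop where
  s0 : ContDiff ℝ ∞ χ
  s1 : ContDiff ℝ ∞ χ₁
  s2 : ContDiff ℝ ∞ χ₂
  c2 : HasCompactSupport χ₂
  o2 : tsupport χ₂ ⊆ O
  i1 : ∀ x ∈ tsupport χ, χ₁ x = 1
  i2 : ∀ x ∈ tsupport χ₁, χ₂ x = 1
  b0 : ∀ x, |χ x| ≤ 1
  b1 : ∀ x, |χ₁ x| ≤ 1
  b2 : ∀ x, |χ₂ x| ≤ 1
  d0 : ∀ k x, |pd k χ x| ≤ ρ
  dd : ∀ k l x, |pd k (pd l χ) x| ≤ ρ ^ 2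
  d1 : ∀ k x, |pd k χ₁ x| ≤ ρ
  d2 : ∀ k x, |pd k χ₂ x| ≤ ρ
  mB : MeasurableSet B
  bB : B ⊆ tsupport χ
  zB : ∀ x ∉ B, ∀ k, pd k χ x = 0 ∧ ∀ l, pd l (pd k χ) x = 0

end Vale.Agent.P088.S4
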