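import Vale.Agent.P088.R2.H349.S4.Defs

/-!
# P088, stage 4 (local theorem for pairs), part A: the rows

Rows are literal statements; the owner of a row proves `theorem rowXX : RowXX` (or
`rowXX : RowYY → RowXX`) in an own file.  See `notes/h349_stage4.md` for the proofs.
-/

open MeasureTheory Set
open scoped ContDiff Matrix

noncomputable section

namespace Vale.Agent.P088.S4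

open Vale.Agent.P088.LR Vale.Agent.P088.LR.U Vale.Agent.P088.LR.H158
open Vale.Agent.P088.HY (VV)
open Vale.Agent.P088.PJ

variable {n N : ℕ}

/-- The weight. It is not convex (it is a convex function of the inverted variable in the closing
argument), convexity is replaced by the solvability `SlD`. -/
structure WX (O : Set (V n)) (M c₀ : ℝ) (g : V n → ℝ) : Prop where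
  gs : ContDiff ℝ ∞ g
  g1 : ∀ x ∈ O, ∀ i, |pd i g x| ≤ M
  g2 : ∀ x ∈ O, ∀ i j, |pd i (pd j g) x| ≤ M
  gr : ∀ x ∈ O, c₀ ≤ ∑ i, pd i g x ^ 2

/-- Weighted solvability of `∑ ∂_i (s_ij ∂_j z) = F` on `O`. -/
def SlD (O : Set (V n)) (s : MF n) (g : V n → ℝ) (ρ κ : ℝ) : Prop :=
  ∀ F : V n → ℝ, ContDiff ℝ ∞ F → HasCompactSupport F → tsupport F ⊆ O →
  ∃ z : V n → ℝ, ContDiffOn ℝ ∞ z O ∧ (∀ x ∈ O, R2.H404.Ld s z x = F x) ∧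
    IntegrableOn (fun x => z x ^ 2 * Real.exp (-(2 * ρ * g x))) O ∧
    ∫ x in O, z x ^ 2 * Real.exp (-(2 * ρ * g x)) ≤
      κ * ∫ x in O, F x ^ 2 * Real.exp (-(2 * ρ * g x))

/-! ## Gauge estimates -/

/-- (KO) the weighted conformal Korn inequality, without loss.
PROOF. `X_i = ∂_i - ρ g_i`, `X_i^* = -∂_i - ρ g_i`, `u = e^{ρ g} v`, `[X_i, X_j^*] = -2 ρ g_ij`:
`|Xu|² = |∇u|² + ρ²|∇g|²|u|² + ρ Δg |u|²`, `Σ⟨X_i u_j, X_j u_i⟩ = |X^*·u|² + 2ρ⟨g''u,u⟩`,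
`|X·u|² = Σ⟨X_j^* u_i, X_i^* u_j⟩ + 2ρ⟨g''u,u⟩ ≤ |Xu|² + 2ρ⟨g''u,u⟩ - 2ρ∫Δg|u|²`. -/
def RowXKO : Prop := ∀ n : ℕ, 3 ≤ n → ∀ M c₀ : ℝ, 0 < M → 0 < c₀ → ∃ C ρ₀ : ℝ, 0 < C ∧ 1 ≤ ρ₀ ∧
  ∀ O : Set (V n), IsOpen O → ∀ g : V n → ℝ, ContDiff ℝ ∞ g → (∀ x ∈ O, ∀ i, |pd i g x| ≤ M) →
  (∀ x ∈ O, ∀ i j, |pd i (pd j g) x| ≤ M) → (∀ x ∈ O, c₀ ≤ ∑ i, pd i g x ^ 2) →
  ∀ ρ : ℝ, ρ₀ ≤ ρ → ∀ v : Fin n → V n → ℂ, (∀ i, ContDiff ℝ ∞ (v i)) →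
  (∀ i, HasCompactSupport (v i)) → (∀ i, tsupport (v i) ⊆ O) →
  ∫ x, Real.exp (2 * ρ * g x) * ((∑ i, ∑ j, ‖pd i (v j) x‖ ^ 2) + ρ ^ 2 * ∑ j, ‖v j x‖ ^ 2) ≤
    C * ∫ x, Real.exp (2 * ρ * g x) * ∑ i, ∑ j, ‖pd i (v j) x + pd j (v i) x -
      (if i = j then (2 / n : ℂ) * ∑ l, pd l (v l) x else 0)‖ ^ 2

/-- (GI) the gauge identity, and its real trace with `Γ` inside the derivative.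
PROOF. `(M₂ - M₁) Y_a + M₂ D_a = 0`, multiply by `Γ_ab`, use `li`; `Qt_b` is skew Hermitian. -/
def RowXGI : Prop := ∀ n N : ℕ, ∃ (k : ℕ) (δ₀ : ℝ), 0 < δ₀ ∧ ∀ (O K : Set (V n)) (j₀ : Fin N) (s₁ s₂ : MF n)
  (P₁ P₂ : MC n N) (G₁ G₂ β Y D : Fin n → MC n N), RL k δ₀ O K j₀ s₁ s₂ P₁ P₂ G₁ G₂ β Y D →
  ∀ Γ : Fin n → Fin n → MC n N, IG k δ₀ Y Γ →
  (∀ b, ∀ x ∈ O, Qt s₁ s₂ G₁ G₂ b x = -∑ a,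
    (∑ j, pdm j (fun y => ∑ i, Zt s₁ s₂ P₁ P₂ j i y * pdm i (Y a) y) x
      + ∑ i, pdm i (fun y => ∑ j, TP s₂ P₂ i j y * pdm j (D a) y) x
      + ∑ i, kp s₂ G₂ i x * pdm i (D a) x) * Γ a b x) ∧
  ∀ b, ∀ x ∈ O, ∑ j, pd j (fun y => (Zt s₁ s₂ P₁ P₂ j b y j₀ j₀).re) x
      + ∑ i, pd i (fun y => ((∑ j, ∑ a, TP s₂ P₂ i j y * pdm j (D a) y * Γ a b y) j₀ j₀).re) x =
    ((∑ i, ∑ j, ∑ a, Zt s₁ s₂ P₁ P₂ j i x * pdm i (Y a) x * pdm j (Γ a b) x) j₀ j₀).re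
      + ((∑ i, ∑ j, ∑ a, TP s₂ P₂ i j x * pdm j (D a) x * pdm i (Γ a b) x) j₀ j₀).re
      - ((∑ i, ∑ a, kp s₂ G₂ i x * pdm i (D a) x * Γ a b x) j₀ j₀).re

/-- (TR) the trace part.
PROOF. `ℓ(Zt_jb) = ℓ(P₂) (h - ph s₁)_jb + (s₁)_jb ps`, `ℓ(U) = Re U j₀ j₀`; test the second identity of (GI) with
`χ ∂_b z`, `∑ ∂_i (s₁_ij ∂_j z) = χ ps e^{2 ρ g}` from `SlD`, weighted Caccioppoli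
inequalities as in helper238's Cac/Tfrw. -/
def RowXTR : Prop := ∀ n N : ℕ, 3 ≤ n → 1 ≤ N → ∀ M c₀ C₁ : ℝ, 0 < M → 0 < c₀ → 0 < C₁ →
  ∃ (k : ℕ) (C δ₀ ρ₀ : ℝ), 0 < C ∧ 0 < δ₀ ∧ 1 ≤ ρ₀ ∧ ∀ (O K : Set (V n)) (j₀ : Fin N) (s₁ s₂ : MF n)
  (P₁ P₂ : MC n N) (G₁ G₂ β Y D : Fin n → MC n N), RL k δ₀ O K j₀ s₁ s₂ P₁ P₂ G₁ G₂ β Y D →
  ∀ Γ : Fin n → Fin n → MC n N, IG k δ₀ Y Γ → ∀ g : V n → ℝ, WX O M c₀ g →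
  ∀ ρ : ℝ, ρ₀ ≤ ρ → SlD O s₁ g ρ (C₁ / ρ ^ 3) → ∀ (B : Set (V n)) (χ χ₁ χ₂ : V n → ℝ), CC O B ρ χ χ₁ χ₂ →
  wI χ g ρ (fun x => ps j₀ s₁ s₂ P₁ P₂ x ^ 2) ≤
    C * ρ * wI χ g ρ (fun x => h0 s₁ s₂ x + d1 D x)
      + C / ρ * wI χ g ρ (fun x => hh s₁ s₂ x + nq (P₂ x - P₁ x) + d0 D x)
      + C * ρ ^ 6 * wB B g ρ (U0 s₁ s₂ P₁ P₂ D)

/-- (ME) the estimate of `m = P₂ - P₁`.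
PROOF. Difference of the equations `pe`: `∑ ∂_i (s₂_ij ∂_j m) = div F' + F''` with
`|F'|, |F''| ≤ C δ (|h| + |m| + |D| + |∇D|)`; the terms `O(δ) (G₂ - G₁)`, `G₂ - G₁ = s₂⁻¹ (Q - h G₁)`,
by the first identity of (GI), everything in divergence form; test entrywise with
`∑ ∂_i (s₂_ij ∂_j z) = χ m e^{2 ρ g}` from `SlD`. -/
def RowXME : Prop := ∀ n N : ℕ, 3 ≤ n → 1 ≤ N → ∀ M c₀ C₁ : ℝ, 0 < M → 0 < c₀ → 0 < C₁ →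
  ∃ (k : ℕ) (C δ₀ ρ₀ : ℝ), 0 < C ∧ 0 < δ₀ ∧ 1 ≤ ρ₀ ∧ ∀ (O K : Set (V n)) (j₀ : Fin N) (s₁ s₂ : MF n)
  (P₁ P₂ : MC n N) (G₁ G₂ β Y D : Fin n → MC n N), RL k δ₀ O K j₀ s₁ s₂ P₁ P₂ G₁ G₂ β Y D →
  ∀ Γ : Fin n → Fin n → MC n N, IG k δ₀ Y Γ → ∀ g : V n → ℝ, WX O M c₀ g →
  ∀ ρ : ℝ, ρ₀ ≤ ρ → SlD O s₂ g ρ (C₁ / ρ ^ 3) → ∀ (B : Set (V n)) (χ χ₁ χ₂ : V n → ℝ), CC O B ρ χ χ₁ χ₂ →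
  wI χ g ρ (fun x => nq (P₂ x - P₁ x)) ≤
    C / ρ * wI χ g ρ (fun x => hh s₁ s₂ x + d0 D x + d1 D x)
      + C * ρ ^ 6 * wB B g ρ (U0 s₁ s₂ P₁ P₂ D)

/-- (GE) everything is controlled by the trace free part of the main tensor.
PROOF. (1) `ℓ(VS) = h ℓ(P₂) + s₁ ℓ(m) + 2 sym (s₂ ∇) ℓ(𝒟) + O(𝒟)`, `ℓ(𝒟) = O(δ) D`:
`|h0| ≤ C |tf VS|² + C δ |∇D|² + C |D|²`. (2) (KO) for `χ 𝒟` (entrywise): no loss.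
(3) (TR) and (ME), `h = h0 + ph s₁`, `ph = (ps - ℓ(m)) / ℓ(P₂)`. -/
def RowXGE : Prop := ∀ n N : ℕ, 3 ≤ n → 1 ≤ N → ∀ M c₀ C₁ : ℝ, 0 < M → 0 < c₀ → 0 < C₁ →
  ∃ (k : ℕ) (C δ₀ ρ₀ : ℝ), 0 < C ∧ 0 < δ₀ ∧ 1 ≤ ρ₀ ∧ ∀ (O K : Set (V n)) (j₀ : Fin N) (s₁ s₂ : MF n)
  (P₁ P₂ : MC n N) (G₁ G₂ β Y D : Fin n → MC n N), RL k δ₀ O K j₀ s₁ s₂ P₁ P₂ G₁ G₂ β Y D →
  ∀ Γ : Fin n → Fin n → MC n N, IG k δ₀ Y Γ → ∀ τ : MF n, SmM τ → (∀ x, s₁ x * τ x = 1) →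
  ∀ g : V n → ℝ, WX O M c₀ g →
  ∀ ρ : ℝ, ρ₀ ≤ ρ → SlD O s₁ g ρ (C₁ / ρ ^ 3) → SlD O s₂ g ρ (C₁ / ρ ^ 3) → ∀ (B : Set (V n)) (χ χ₁ χ₂ : V n → ℝ), CC O B ρ χ χ₁ χ₂ →
  wI χ g ρ (fun x => hh s₁ s₂ x + nq (P₂ x - P₁ x) + d1 D x + ρ ^ 2 * d0 D x) ≤
    C * ρ * wI χ g ρ (tn (tfC s₁ (VS s₁ s₂ τ P₁ P₂ G₂ β Γ D)))
      + C * ρ ^ 6 * wB B g ρ (U0 s₁ s₂ P₁ P₂ D)

/-! ## The approximate solution -/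

/-- Test tensors. -/
structure Tk (s₁ : MF n) (k2 : Fin n → Fin n → MC n N) : Prop where
  sm : ∀ i j, SmC (k2 i j)
  sy : ∀ i j, k2 i j = k2 j i
  tf : ∀ x, ipC s₁ k2 x = 0

/-- The equations of the correctors. -/
structure Ck (O : Set (V n)) (s₁ s₂ τ : MF n) (P₂ : MC n N) (G₂ β Y : Fin n → MC n N)
    (Γ : Fin n → Fin n → MC n N) (k2 : Fin n → Fin n → MC n N) (W : Fin n → MC n N)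
    (W₀ : MC n N) : Prop where
  sW : ∀ a, SmC (W a)
  s0 : SmC W₀
  eW : ∀ a, ∀ x ∈ O, Rv s₂ (bR s₂ P₂ G₂) (W a) x =
    ∑ b, Γ a b x * rh s₁ s₂ τ P₂ G₂ β k2 b x * (P₂ x)⁻¹
  e0 : ∀ x ∈ O, Rv s₂ (bR s₂ P₂ G₂) W₀ x =
    -((∑ i, ∑ j, k2 i j x * TP s₂ P₂ i j x
      + ∑ a, ∑ b, Y a x * (Γ a b x * rh s₁ s₂ τ P₂ G₂ β k2 b x)) * (P₂ x)⁻¹)

/-- (KL) the two equations of the approximate solution (algebra). -/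
def RowXKL : Prop := ∀ n N : ℕ, ∃ (k : ℕ) (δ₀ : ℝ), 0 < δ₀ ∧ ∀ (O K : Set (V n)) (j₀ : Fin N) (s₁ s₂ : MF n)
  (P₁ P₂ : MC n N) (G₁ G₂ β Y D : Fin n → MC n N), RL k δ₀ O K j₀ s₁ s₂ P₁ P₂ G₁ G₂ β Y D →
  ∀ Γ : Fin n → Fin n → MC n N, IG k δ₀ Y Γ → ∀ τ : MF n, SmM τ → (∀ x, s₁ x * τ x = 1) →
  ∀ k2 : Fin n → Fin n → MC n N, Tk s₁ k2 → ∀ (W : Fin n → MC n N) (W₀ : MC n N),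
  Ck O s₁ s₂ τ P₂ G₂ β Y Γ k2 W W₀ →
  SmK univ (Kq s₁ τ β Y k2 W W₀) ∧
    (∀ z ∈ O ×ˢ O, Lk s₁ β (Kq s₁ τ β Y k2 W W₀) z = Fx s₁ τ β k2 z) ∧
    ∀ z ∈ O ×ˢ O, Rk s₂ (bR s₂ P₂ G₂) (Kq s₁ τ β Y k2 W W₀) z =
      Fy s₁ s₂ τ P₂ G₂ β Y Γ k2 z

/-- (KB) smoothness and bounds of the residuals: `|∇^l F| ≤ C |x - y|^{(2 - l)₊} |k2|_{C^{l+2}}`. -/
def RowXKB : Prop := ∀ n N L : ℕ, ∃ (k : ℕ) (C δ₀ : ℝ), 0 < C ∧ 0 < δ₀ ∧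
  ∀ (O K : Set (V n)) (j₀ : Fin N) (s₁ s₂ : MF n)
  (P₁ P₂ : MC n N) (G₁ G₂ β Y D : Fin n → MC n N), RL k δ₀ O K j₀ s₁ s₂ P₁ P₂ G₁ G₂ β Y D →
  ∀ Γ : Fin n → Fin n → MC n N, IG k δ₀ Y Γ → ∀ τ : MF n, SmM τ → (∀ x, s₁ x * τ x = 1) →
  ∀ k2 : Fin n → Fin n → MC n N, Tk s₁ k2 →
  SmK univ (Fx s₁ τ β k2) ∧ SmK univ (Fy s₁ s₂ τ P₂ G₂ β Y Γ k2) ∧
  ∀ z : VV n, ‖z.1 - z.2‖ ≤ 1 → ∀ B : ℝ, 0 ≤ B → ∀ l ≤ L,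
    (∀ i j a b, ∀ m ≤ l + 2, ‖iteratedFDeriv ℝ m (fun x => k2 i j x a b) z.2‖ ≤ B) → ∀ a b,
    ‖iteratedFDeriv ℝ l (fun z => Fx s₁ τ β k2 z a b) z‖ ≤ C * ‖z.1 - z.2‖ ^ (2 - l) * B ∧
    ‖iteratedFDeriv ℝ l (fun z => Fy s₁ s₂ τ P₂ G₂ β Y Γ k2 z a b) z‖ ≤
      C * ‖z.1 - z.2‖ ^ (2 - l) * B

/-- (PI) the value of the form on the approximate solution, with a cut-off. -/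
def RowXPI : Prop := ∀ n N : ℕ, ∃ (k : ℕ) (δ₀ : ℝ), 0 < δ₀ ∧ ∀ (O K : Set (V n)) (j₀ : Fin N) (s₁ s₂ : MF n)
  (P₁ P₂ : MC n N) (G₁ G₂ β Y D : Fin n → MC n N), RL k δ₀ O K j₀ s₁ s₂ P₁ P₂ G₁ G₂ β Y D →
  ∀ Γ : Fin n → Fin n → MC n N, IG k δ₀ Y Γ → ∀ τ : MF n, SmM τ → (∀ x, s₁ x * τ x = 1) →
  ∀ k2 : Fin n → Fin n → MC n N, Tk s₁ k2 → ∀ (W : Fin n → MC n N) (W₀ : MC n N),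
  Ck O s₁ s₂ τ P₂ G₂ β Y Γ k2 W W₀ → ∀ χ : V n → ℝ, ContDiff ℝ ∞ χ → HasCompactSupport χ →
  tsupport χ ⊆ O →
  ∫ x, (χ x : ℂ) * dgB s₁ s₂ P₁ P₂ G₁ G₂ (Kq s₁ τ β Y k2 W W₀) x =
    -(∫ x, (χ x : ℂ) * ∑ i, ∑ j, (VS s₁ s₂ τ P₁ P₂ G₂ β Γ D i j x * k2 i j x).trace)
      - ∫ x, ∑ j, ((pd j χ x : ℝ) : ℂ) * Bj s₁ s₂ P₁ P₂ G₂ Y D Γ k2 W j x

end Vale.Agent.P088.S4
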